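import Vale.Agent.P088.R2.H437.BLC
import Vale.Agent.P088.R2.H551.B.Spec

/-!
# P088, row LC of `H551/B/Spec`: two pairs near one constant metric on a smooth domain

From row SC by the linear change of coordinates `x = S⁻¹ (y - 1/2)`, `Sᵀ S = G`; the connections
are pulled back.
-/

open MeasureTheory Set
open scoped ContDiff Matrix

noncomputable section

namespace Vale.Agent.P088.R2.H803

open Vale.Agent.P088.LR Vale.Agent.P088.LR.B Vale.Agent.P088.LR.U Vale.Agent.P088.LR.H158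
open Vale.Agent.P088.HY.H794 Vale.Agent.P088.HY.H437 Vale.Agent.P088.PJ.Bd
open Vale.Agent.P088.HY.Bd (IsoOn NrC CoG)

variable {n N : ℕ} {M : Matrix (Fin n) (Fin n) ℝ}

/-- The connection in the coordinates `y`, `x = M (y - 1/2)`. -/
def aC (M : Matrix (Fin n) (Fin n) ℝ) (A : Cn n N) : Cn n N :=
  fun i y => ∑ j, ((M j i : ℝ) : ℂ) • A j (ap M y)

theorem aC_apply (A : Cn n N) (i : Fin n) (y : V n) (a b : Fin N) :
    aC M A i y a b = ∑ j, ((M j i : ℝ) : ℂ) * A j (ap M y) a b := by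
  unfold aC
  rw [Matrix.sum_apply]
  rfl

theorem smU_aC {A : Cn n N} (hA : SmU A) : SmU (aC M A) := by
  refine ⟨fun i a b => ?_, fun i y => ?_⟩
  · simp only [aC_apply]
    exact ContDiff.sum fun j _ => contDiff_const.mul ((hA.1 j a b).comp (contDiff_ap M))
  · unfold aC
    rw [Matrix.conjTranspose_sum, ← Finset.sum_neg_distrib]
    refine Finset.sum_congr rfl fun j _ => ?_
    rw [Matrix.conjTranspose_smul, hA.2 j, smul_neg]
    congr 2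
    exact Complex.conj_ofReal _

/-! ## Covariant derivatives and energies -/

theorem cd_aC {A : Cn n N} {u : V n → Fin N → ℂ} (hu : ContDiff ℝ ∞ u) (i : Fin n) (y : V n) :
    cd (aC M A) i (fun y => u (ap M y)) y = ∑ k, ((M k i : ℝ) : ℂ) • cd A k u (ap M y) := by
  unfold cd
  rw [pd_ap i (hu.differentiable (by simp)) y]
  have h1 : aC M A i y *ᵥ u (ap M y) = ∑ k, ((M k i : ℝ) : ℂ) • (A k (ap M y) *ᵥ u (ap M y)) := by
    unfold aC
    rw [Matrix.sum_mulVec]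
    exact Finset.sum_congr rfl fun k _ => Matrix.smul_mulVec _ _ _
  rw [h1, ← Finset.sum_add_distrib]
  refine Finset.sum_congr rfl fun k _ => ?_
  rw [smul_add]
  congr 1

theorem sum4 (f : Fin n → Fin n → Fin n → Fin n → ℂ) :
    ∑ i, ∑ j, ∑ a, ∑ b, f i j a b = ∑ a, ∑ b, ∑ i, ∑ j, f i j a b := by
  calc ∑ i, ∑ j, ∑ a, ∑ b, f i j a b = ∑ i, ∑ a, ∑ j, ∑ b, f i j a b :=
        Finset.sum_congr rfl fun i _ => Finset.sum_comm
    _ = ∑ a, ∑ i, ∑ j, ∑ b, f i j a b := Finset.sum_comm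
    _ = ∑ a, ∑ i, ∑ b, ∑ j, f i j a b :=
        Finset.sum_congr rfl fun a _ => Finset.sum_congr rfl fun i _ => Finset.sum_comm
    _ = ∑ a, ∑ b, ∑ i, ∑ j, f i j a b := Finset.sum_congr rfl fun a _ => Finset.sum_comm

theorem dot_sum (c d : Fin n → ℝ) (X Y : Fin n → Fin N → ℂ) :
    (∑ i, ((c i : ℝ) : ℂ) • X i) ⬝ᵥ star (∑ j, ((d j : ℝ) : ℂ) • Y j) =
      ∑ i, ∑ j, (c i : ℂ) * (d j : ℂ) * (X i ⬝ᵥ star (Y j)) := by
  rw [sum_dotProduct]
  refine Finset.sum_congr rfl fun k _ => ?_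
  rw [star_sum, dotProduct_sum]
  refine Finset.sum_congr rfl fun l _ => ?_
  rw [star_smul, smul_dotProduct, dotProduct_smul, smul_eq_mul, smul_eq_mul]
  have e : star ((d l : ℝ) : ℂ) = ((d l : ℝ) : ℂ) := Complex.conj_ofReal _
  rw [e]
  ring

/-- Inversion of the change of the frame. -/
theorem inv_fr {F : Type*} [AddCommGroup F] [Module ℂ F] (hM : M.det ≠ 0) (X : Fin n → F)
    (a : Fin n) : ∑ i, ((M⁻¹ i a : ℝ) : ℂ) • ∑ k, ((M k i : ℝ) : ℂ) • X k = X a := by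
  simp_rw [Finset.smul_sum, smul_smul]
  rw [Finset.sum_comm]
  simp_rw [← Finset.sum_smul]
  calc ∑ k, (∑ i, ((M⁻¹ i a : ℝ) : ℂ) * ((M k i : ℝ) : ℂ)) • X k
      = ∑ k, (if k = a then (1 : ℂ) else 0) • X k :=
        Finset.sum_congr rfl fun k _ => by rw [inv_sum hM k a]
    _ = X a := by simp

/-- Change of the coefficients in a sesquilinear form. -/
theorem sum_tsr (hM : M.det ≠ 0) (s : MF n) (y : V n) (X Y : Fin n → Fin N → ℂ) :
    ∑ i, ∑ j, (tsr M s y i j : ℂ) * ((∑ k, ((M k i : ℝ) : ℂ) • X k) ⬝ᵥ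
      star (∑ l, ((M l j : ℝ) : ℂ) • Y l)) =
      ∑ a, ∑ b, (s (ap M y) a b : ℂ) * (X a ⬝ᵥ star (Y b)) := by
  obtain ⟨X', hX'⟩ : ∃ X' : Fin n → Fin N → ℂ, X' = fun i => ∑ k, ((M k i : ℝ) : ℂ) • X k :=
    ⟨_, rfl⟩
  obtain ⟨Y', hY'⟩ : ∃ Y' : Fin n → Fin N → ℂ, Y' = fun i => ∑ k, ((M k i : ℝ) : ℂ) • Y k :=
    ⟨_, rfl⟩
  have eX : ∀ a, ∑ i, ((M⁻¹ i a : ℝ) : ℂ) • X' i = X a := by rw [hX']; exact inv_fr hM X
  have eY : ∀ a, ∑ i, ((M⁻¹ i a : ℝ) : ℂ) • Y' i = Y a := by rw [hY']; exact inv_fr hM Y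
  have h2 : ∀ i j, (tsr M s y i j : ℂ) * (X' i ⬝ᵥ star (Y' j)) =
      ∑ a, ∑ b, (s (ap M y) a b : ℂ) *
        ((M⁻¹ i a : ℂ) * (M⁻¹ j b : ℂ) * (X' i ⬝ᵥ star (Y' j))) := by
    intro i j
    rw [tsr_apply]
    push_cast
    rw [Finset.sum_mul, Finset.sum_comm]
    refine Finset.sum_congr rfl fun b _ => ?_
    rw [Finset.sum_mul, Finset.sum_mul]
    refine Finset.sum_congr rfl fun a _ => ?_
    ring
  have e3 : ∀ i j, (tsr M s y i j : ℂ) * ((∑ k, ((M k i : ℝ) : ℂ) • X k) ⬝ᵥ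
      star (∑ l, ((M l j : ℝ) : ℂ) • Y l)) = (tsr M s y i j : ℂ) * (X' i ⬝ᵥ star (Y' j)) := by
    intro i j
    rw [hX', hY']
  simp_rw [e3, h2]
  rw [sum4]
  refine Finset.sum_congr rfl fun a _ => Finset.sum_congr rfl fun b _ => ?_
  simp_rw [← Finset.mul_sum]
  rw [← dot_sum (fun i => M⁻¹ i a) (fun j => M⁻¹ j b) X' Y', eX, eY]

/-- The energies. -/
theorem en_aC {κ : ℝ} (hκ : 0 < κ) (hM : M.det ≠ 0) {Ω : Set (V n)} (hΩ : MeasurableSet Ω)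
    {g : MF n} (hg : ∀ x, (g x).PosDef) (A : Cn n N) {u v : V n → Fin N → ℂ}
    (hu : ContDiff ℝ ∞ u) (hv : ContDiff ℝ ∞ v) :
    en (ap M ⁻¹' Ω) (gsr κ M g) (aC M A) (fun y => u (ap M y)) (fun y => v (ap M y)) =
      (((√(κ ^ n) * |M.det| * κ⁻¹) * |M.det⁻¹| : ℝ) : ℂ) * en Ω g A u v := by
  obtain ⟨c, hc⟩ : ∃ c : ℝ, c = √(κ ^ n) * |M.det| * κ⁻¹ := ⟨_, rfl⟩
  have e1 := int_ap hM Ω (fun x => ∑ i, ∑ j, (sg g x i j : ℂ) *
    (cd A i u x ⬝ᵥ star (cd A j v x))) hΩ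
  rw [Complex.real_smul] at e1
  unfold en
  rw [← hc, Complex.ofReal_mul, mul_assoc, ← e1, ← integral_const_mul]
  refine integral_congr_ae (Filter.Eventually.of_forall fun y => ?_)
  simp only [cd_aC hu, cd_aC hv, sg_gsr hκ hM hg, ← hc]
  rw [← sum_tsr hM (sg g) y, Finset.mul_sum]
  refine Finset.sum_congr rfl fun i _ => ?_
  rw [Finset.mul_sum]
  refine Finset.sum_congr rfl fun j _ => ?_
  rw [Matrix.smul_apply, smul_eq_mul]
  push_cast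
  ring

/-! ## The data -/

theorem fr_ap (hM : M.det ≠ 0) (Ω : Set (V n)) (y : V n) :
    y ∈ frontier (ap M ⁻¹' Ω) ↔ ap M y ∈ frontier Ω :=
  (Set.ext_iff.mp ((hmA M hM).preimage_frontier Ω) y).symm

theorem hr_aC {κ : ℝ} (hκ : 0 < κ) (hM : M.det ≠ 0) {Ω : Set (V n)} (hΩ : MeasurableSet Ω)
    {g : MF n} (hg : ∀ x, (g x).PosDef) {A : Cn n N} {f u : V n → Fin N → ℂ}
    (h : Hr Ω g A (fun x => f (ai M x)) u) :
    Hr (ap M ⁻¹' Ω) (gsr κ M g) (aC M A) f (fun y => u (ap M y)) := by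
  obtain ⟨h1, h2, h3⟩ := h
  refine ⟨h1.comp (contDiff_ap M), fun y hy => ?_, fun φ hφ hφ0 => ?_⟩
  · show u (ap M y) = f y
    rw [h2 _ ((fr_ap hM Ω y).1 hy)]
    show f (ai M (ap M y)) = f y
    rw [ai_ap hM]
  · have e := en_aC hκ hM hΩ hg A h1 (hφ.comp (contDiff_ai M))
    have e2 := h3 (fun x => φ (ai M x)) (hφ.comp (contDiff_ai M)) fun x hx =>
      hφ0 _ ((fr_ap hM Ω _).2 (by rwa [ap_ai hM]))
    have e4 : (φ ∘ ai M : V n → Fin N → ℂ) = fun x => φ (ai M x) := rfl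
    rw [e4] at e
    rw [e2, mul_zero] at e
    simp only [ai_ap hM] at e
    exact e

/-- The data under the affine change of variables. -/
theorem sdu_aC {κ : ℝ} (hκ : 0 < κ) (hM : M.det ≠ 0) {Ω : Set (V n)} (hΩ : MeasurableSet Ω)
    {g₁ g₂ : MF n} (h1 : ∀ x, (g₁ x).PosDef) (h2 : ∀ x, (g₂ x).PosDef) {A₁ A₂ : Cn n N}
    (h : SDU Ω g₁ A₁ g₂ A₂) :
    SDU (ap M ⁻¹' Ω) (gsr κ M g₁) (aC M A₁) (gsr κ M g₂) (aC M A₂) := by
  intro f f' hf hf'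
  obtain ⟨u, v, u', v', a1, a2, a3, a4, a5⟩ := h (fun x => f (ai M x)) (fun x => f' (ai M x))
    (hf.comp (contDiff_ai M)) (hf'.comp (contDiff_ai M))
  refine ⟨_, _, _, _, hr_aC hκ hM hΩ h1 a1, hr_aC hκ hM hΩ h1 a2, hr_aC hκ hM hΩ h2 a3,
    hr_aC hκ hM hΩ h2 a4, ?_⟩
  rw [en_aC hκ hM hΩ h1 A₁ a1.1 a2.1, en_aC hκ hM hΩ h2 A₂ a3.1 a4.1, a5]

/-! ## The gauge transform -/

theorem gau_aC (hM : M.det ≠ 0) {Ω : Set (V n)} {A₁ A₂ : Cn n N} {Φ : V n → V n}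
    (hΦ : ContDiff ℝ ∞ Φ) {U : V n → Matrix (Fin N) (Fin N) ℂ}
    (h : Gau (ap M ⁻¹' Ω) U (pbF Φ (aC M A₁)) (aC M A₂)) :
    Gau Ω (fun x => U (ai M x)) (pbF (fun x => ap M (Φ (ai M x))) A₁) A₂ := by
  obtain ⟨⟨h1, h2, h3⟩, h4⟩ := h
  have hcl : ∀ x ∈ closure Ω, ai M x ∈ closure (ap M ⁻¹' Ω) := by
    intro x hx
    have e := (hmA M hM).preimage_closure Ω
    have e3 : (hmA M hM) ⁻¹' Ω = ap M ⁻¹' Ω := rfl
    rw [e3] at e
    rw [← e]
    show ap M (ai M x) ∈ closure Ω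
    rwa [ap_ai hM]
  refine ⟨⟨fun a b => (h1 a b).comp (contDiff_ai M), fun x hx => h2 _ (hcl x hx),
    fun k x hx => ?_⟩, fun x hx => h4 _ ((fr_ap hM Ω _).2 (by rwa [ap_ai hM]))⟩
  have hy : ai M x ∈ ap M ⁻¹' Ω := by
    show ap M (ai M x) ∈ Ω
    rwa [ap_ai hM]
  have e1 : ∑ i, ((M⁻¹ i k : ℝ) : ℂ) • aC M A₂ i (ai M x) = A₂ k x := by
    unfold aC
    simp only [ap_ai hM]
    exact inv_fr hM (fun j => A₂ j x) k
  have e2 : ∑ i, ((M⁻¹ i k : ℝ) : ℂ) • pbF Φ (aC M A₁) i (ai M x) =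
      pbF (fun x => ap M (Φ (ai M x))) A₁ k x := by
    unfold pbF aC
    rw [Jm_conj hΦ]
    calc ∑ i, ((M⁻¹ i k : ℝ) : ℂ) • ∑ j, ((Jm Φ (ai M x) j i : ℝ) : ℂ) •
          ∑ l, ((M l j : ℝ) : ℂ) • A₁ l (ap M (Φ (ai M x)))
        = ∑ i, ∑ l, ∑ j, (((M⁻¹ i k : ℝ) : ℂ) * ((Jm Φ (ai M x) j i : ℝ) : ℂ) *
          ((M l j : ℝ) : ℂ)) • A₁ l (ap M (Φ (ai M x))) := by
          refine Finset.sum_congr rfl fun i _ => ?_
          simp_rw [Finset.smul_sum, smul_smul]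
          rw [Finset.sum_comm]
          simp_rw [mul_assoc]
      _ = ∑ l, (((M * Jm Φ (ai M x) * M⁻¹) l k : ℝ) : ℂ) • A₁ l (ap M (Φ (ai M x))) := by
          rw [Finset.sum_comm]
          refine Finset.sum_congr rfl fun l _ => ?_
          simp_rw [← Finset.sum_smul]
          congr 1
          rw [Matrix.mul_apply]
          simp_rw [Matrix.mul_apply]
          push_cast
          refine Finset.sum_congr rfl fun i _ => ?_
          rw [Finset.sum_mul]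
          refine Finset.sum_congr rfl fun j _ => ?_
          ring
  have e3 : ∑ i, ((M⁻¹ i k : ℝ) : ℂ) • pdm i U (ai M x) = pdm k (fun x => U (ai M x)) x := by
    ext a b
    rw [Matrix.sum_apply]
    show _ = pd k (fun x => U (ai M x) a b) x
    rw [pd_ai k (f := fun y => U y a b) ((h1 a b).differentiable (by simp)) x]
    rfl
  rw [← e1, ← e2, ← e3, Matrix.mul_sum, Matrix.sum_mul, Matrix.mul_sum,
    ← Finset.sum_add_distrib]
  refine Finset.sum_congr rfl fun i _ => ?_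
  rw [h3 i _ hy, smul_add, Matrix.mul_smul, Matrix.smul_mul, Matrix.mul_smul]

/-! ## Smallness -/

lemma ifd_sum_le2 {ι : Type*} [Fintype ι] {f : ι → V n → ℂ} (hf : ∀ p, ContDiff ℝ ∞ (f p))
    (c : ι → ℝ) {l : ℕ} {y : V n} {C A : ℝ} (hC : 0 ≤ C) (hc : ∀ p, |c p| ≤ C)
    (h : ∀ p, ‖iteratedFDeriv ℝ l (f p) y‖ ≤ A) :
    ‖iteratedFDeriv ℝ l (fun y => ∑ p, ((c p : ℝ) : ℂ) * f p y) y‖ ≤ Fintype.card ι * (C * A) := by
  have h0 : (fun y => ∑ p, ((c p : ℝ) : ℂ) * f p y) = fun y => ∑ p, c p • f p y := by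
    funext y
    exact Finset.sum_congr rfl fun p _ => Complex.real_smul.symm
  have h1 : iteratedFDeriv ℝ l (fun y => ∑ p, ((c p : ℝ) : ℂ) * f p y) y =
      ∑ p, iteratedFDeriv ℝ l (fun y => c p • f p y) y := by
    rw [h0]
    refine iteratedFDeriv_fun_sum_apply fun p _ => ?_
    exact (((hf p).of_le (by exact_mod_cast le_top)).const_smul (c p)).contDiffAt
  rw [h1]
  refine (norm_sum_le _ _).trans ?_
  calc ∑ p, ‖iteratedFDeriv ℝ l (fun y => c p • f p y) y‖ ≤ ∑ _p : ι, C * A := by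
        refine Finset.sum_le_sum fun p _ => ?_
        have h2 : iteratedFDeriv ℝ l (fun y => c p • f p y) y = c p • iteratedFDeriv ℝ l (f p) y :=
          iteratedFDeriv_const_smul_apply' ((hf p).of_le (by exact_mod_cast le_top)).contDiffAt
        rw [h2, norm_smul]
        exact mul_le_mul (hc p) (h p) (norm_nonneg _) hC
    _ = _ := by simp

/-- Smallness of the transformed connection. -/
theorem clC_aC (M : Matrix (Fin n) (Fin n) ℝ) (hn : 0 < n) (k : ℕ) {ε : ℝ} (hε : 0 < ε) :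
    ∃ δ : ℝ, 0 < δ ∧ ∀ A : Cn n N, SmU A → (∀ i, ClC k δ (A i)) → ∀ i, ClC k ε (aC M A i) := by
  have hn0 : (0 : ℝ) < n := by exact_mod_cast hn
  obtain ⟨C, hC⟩ : ∃ C : ℝ, C = 1 + ∑ i, ∑ j, |M i j| := ⟨_, rfl⟩
  have hC0 : 0 < C := by rw [hC]; positivity
  have hMC : ∀ i j, |M i j| ≤ C := by
    intro i j
    have h1 : |M i j| ≤ ∑ j, |M i j| :=
      Finset.single_le_sum (f := fun j => |M i j|) (fun _ _ => abs_nonneg _) (Finset.mem_univ j)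
    have h2 : ∑ j, |M i j| ≤ ∑ i, ∑ j, |M i j| :=
      Finset.single_le_sum (f := fun i => ∑ j, |M i j|)
        (fun _ _ => Finset.sum_nonneg fun _ _ => abs_nonneg _) (Finset.mem_univ i)
    rw [hC]; linarith
  obtain ⟨D, hD⟩ : ∃ D : ℝ, D = max 1 ‖ml M‖ ^ k := ⟨_, rfl⟩
  have hD0 : 0 < D := by rw [hD]; positivity
  refine ⟨ε / (n * C * D), by positivity, fun A hA hcA i a b l hl y => ?_⟩
  simp only [aC_apply]
  have h1 := ifd_sum_le2 (f := fun (p : Fin n) (y : V n) => A p (ap M y) a b)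
    (fun p => (hA.1 p a b).comp (contDiff_ap M))
    (fun p => M p i) (l := l) (y := y) (C := C)
    (A := D * (ε / (n * C * D))) hC0.le (fun p => hMC _ _)
    (fun p => by
      refine (ifd_ap (f := fun x => A p x a b) (hA.1 p a b) l y).trans ?_
      have h2 := hcA p a b l hl (ap M y)
      have h4 : ‖ml M‖ ^ l ≤ D := by
        rw [hD]
        calc ‖ml M‖ ^ l ≤ max 1 ‖ml M‖ ^ l :=
              pow_le_pow_left₀ (norm_nonneg _) (le_max_right _ _) l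
          _ ≤ _ := pow_le_pow_right₀ (le_max_left _ _) hl
      exact mul_le_mul h4 h2 (norm_nonneg _) hD0.le)
  refine h1.trans (le_of_eq ?_)
  rw [Fintype.card_fin]
  field_simp

theorem clC_mono {k : ℕ} {δ δ' : ℝ} (h : δ ≤ δ') {P : MC n N} (hP : ClC k δ P) : ClC k δ' P :=
  fun a b l hl x => (hP a b l hl x).trans h

/-- **Row LC.** -/
theorem rowLC : RowSC → RowLC := by
  intro hSC n N hn hN ρ hρ G hG
  obtain ⟨S, hS, hS0⟩ := posDef_root hG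
  have hSu : IsUnit S.det := hS0.isUnit
  obtain ⟨M, hMe⟩ : ∃ M : Matrix (Fin n) (Fin n) ℝ, M = S⁻¹ := ⟨_, rfl⟩
  have hM : M.det ≠ 0 := by
    rw [hMe, Matrix.det_nonsing_inv, Ring.inverse_eq_inv']
    exact inv_ne_zero hS0
  have hMG : Mᵀ * G * M = 1 := by
    rw [hMe, ← hS, ← Matrix.mul_assoc, ← Matrix.transpose_mul, Matrix.mul_nonsing_inv S hSu,
      Matrix.transpose_one, Matrix.one_mul, Matrix.mul_nonsing_inv S hSu]
  obtain ⟨k, ε, hε, hF⟩ := hSC n N hn hN (fun y => ρ (ap M y)) (sdom_ap hM hρ)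
  obtain ⟨δ₁, hδ₁, hcl⟩ := cl_gsr hMG (by omega) k hε
  obtain ⟨δ₂, hδ₂, hcC⟩ := clC_aC (N := N) M (by omega) k hε
  refine ⟨k, min δ₁ δ₂, lt_min hδ₁ hδ₂, fun g₁ g₂ s1 s2 p1 p2 c1 c2 A₁ A₂ a1 a2 b1 b2 hSE => ?_⟩
  have hO : IsOpen (Om ρ) := isOpen_lt continuous_const hρ.sm.continuous
  obtain ⟨Φ, Ψ, U, hI, hU⟩ := hF (gsr 1 M g₁) (gsr 1 M g₂) (smM_gsr s1) (smM_gsr s2)
    (posDef_gsr one_pos hM p1) (posDef_gsr one_pos hM p2)
    (hcl g₁ s1 fun i j l hl x => (c1 i j l hl x).trans (min_le_left _ _))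
    (hcl g₂ s2 fun i j l hl x => (c2 i j l hl x).trans (min_le_left _ _))
    (aC M A₁) (aC M A₂) (smU_aC a1) (smU_aC a2)
    (hcC A₁ a1 fun i => clC_mono (min_le_right _ _) (b1 i))
    (hcC A₂ a2 fun i => clC_mono (min_le_right _ _) (b2 i))
    (sdu_aC one_pos hM hO.measurableSet p1 p2 hSE)
  exact ⟨_, _, _, isoOn_ap one_pos hM hI, gau_aC hM hI.1 hU⟩

end Vale.Agent.P088.R2.H803
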